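import Vale.Agent.Lib.P126.LogForm

open scoped Pointwise

/-- Duality of entropy with losses logarithmic in the entropy, independent of the dimension:
with `m = log N(K, L)` one has
`m ≤ 1400000 log(3 + m) log(3 + log(3 + m)) log N(L°, (30000 log(3 + m))⁻¹ K°)`. -/
theorem Vale.Agent.Results.P126.DualityLogEntropy.result {n : ℕ}
    {K L : Set (EuclideanSpace ℝ (Fin n))}
    (hK : Vale.Agent.Lib.P126.IsSymBody K) (hL : Vale.Agent.Lib.P126.IsSymBody L) :
    Real.log (Vale.Agent.Lib.P126.covNum K L) ≤
      1400000 * Real.log (3 + Real.log (Vale.Agent.Lib.P126.covNum K L)) *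
        Real.log (3 + Real.log (3 + Real.log (Vale.Agent.Lib.P126.covNum K L))) *
      Real.log (Vale.Agent.Lib.P126.covNum (Vale.Agent.Lib.P126.polarSet L)
        ((30000 * Real.log (3 + Real.log (Vale.Agent.Lib.P126.covNum K L)))⁻¹ •
          Vale.Agent.Lib.P126.polarSet K)) :=
  Vale.Agent.Lib.P126.log_form hK hL
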