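import Vale.Agent.Lib.P126.Main

open scoped Pointwise

/-- Dimension free two-sided comparison of the entropies of `K` versus `L` and of the polar of `L`
versus the polar of `K`, with explicit constants. With `a = 4096 B (J + 1)` and
`Φ x = J' ((J + 11) x + 16384 (J + 1)^2 (2 B)^(-J) x^2)`, one has
`log N(K, L) ≤ Φ (log N(L°, a⁻¹ K°))` and `log N(L°, a K°) ≤ Φ (log N(K, L))`. -/
theorem Vale.Agent.Results.P126.DualityTwoSided.result {n : ℕ}
    {K L : Set (EuclideanSpace ℝ (Fin n))}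
    (hK : Vale.Agent.Lib.P126.IsSymBody K) (hL : Vale.Agent.Lib.P126.IsSymBody L)
    (J J' : ℕ) {B : ℝ} (hB : 1 ≤ B) (hJ' : 1024 * B * ((J : ℝ) + 1) ≤ 2 ^ J') :
    (Real.log (Vale.Agent.Lib.P126.covNum K L) ≤ J' * ((J + 11) *
        Real.log (Vale.Agent.Lib.P126.covNum (Vale.Agent.Lib.P126.polarSet L)
          ((4096 * B * ((J : ℝ) + 1))⁻¹ • Vale.Agent.Lib.P126.polarSet K)) +
      16384 * ((J : ℝ) + 1) ^ 2 * ((2 * B)⁻¹) ^ J *
        (Real.log (Vale.Agent.Lib.P126.covNum (Vale.Agent.Lib.P126.polarSet L)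
          ((4096 * B * ((J : ℝ) + 1))⁻¹ • Vale.Agent.Lib.P126.polarSet K))) ^ 2)) ∧
    (Real.log (Vale.Agent.Lib.P126.covNum (Vale.Agent.Lib.P126.polarSet L)
        ((4096 * B * ((J : ℝ) + 1)) • Vale.Agent.Lib.P126.polarSet K)) ≤ J' * ((J + 11) *
        Real.log (Vale.Agent.Lib.P126.covNum K L) +
      16384 * ((J : ℝ) + 1) ^ 2 * ((2 * B)⁻¹) ^ J *
        (Real.log (Vale.Agent.Lib.P126.covNum K L)) ^ 2)) :=
  Vale.Agent.Lib.P126.two_sided hK hL J J' hB hJ'
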