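import Vale.Agent.Results.P126.ADualityNearLinear
import Vale.Agent.Results.P126.DualityLogEntropy
import Vale.Agent.Results.P126.DualityTwoSided

namespace Vale.Agent.Results.P126.A0Conj

open scoped Pointwise

theorem result :
    (∀ {n : ℕ}
    {K L : Set (EuclideanSpace ℝ (Fin n))}
    (hK : Vale.Agent.Lib.P126.IsSymBody K) (hL : Vale.Agent.Lib.P126.IsSymBody L)
    {s : ℕ} (hs : 1 ≤ s),
      (Real.log (Vale.Agent.Lib.P126.covNum K L) ≤ ((10 + Nat.clog 2 s : ℕ) : ℝ) *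
      (10 * (s : ℝ) * (1 + Real.log (20 * (s : ℝ))) *
        (512 * Real.log (Vale.Agent.Lib.P126.covNum (Vale.Agent.Lib.P126.polarSet L)
          ((4096 * (s : ℝ))⁻¹ • Vale.Agent.Lib.P126.polarSet K))) ^ ((s : ℝ)⁻¹) *
        Real.log (Vale.Agent.Lib.P126.covNum (Vale.Agent.Lib.P126.polarSet L)
          ((4096 * (s : ℝ))⁻¹ • Vale.Agent.Lib.P126.polarSet K)))) ∧
    (Real.log (Vale.Agent.Lib.P126.covNum (Vale.Agent.Lib.P126.polarSet L)
        ((4096 * (s : ℝ)) • Vale.Agent.Lib.P126.polarSet K)) ≤ ((10 + Nat.clog 2 s : ℕ) : ℝ) *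
      (10 * (s : ℝ) * (1 + Real.log (20 * (s : ℝ))) *
        (512 * Real.log (Vale.Agent.Lib.P126.covNum K L)) ^ ((s : ℝ)⁻¹) *
        Real.log (Vale.Agent.Lib.P126.covNum K L)))) ∧
    (∀ {n : ℕ}
    {K L : Set (EuclideanSpace ℝ (Fin n))}
    (hK : Vale.Agent.Lib.P126.IsSymBody K) (hL : Vale.Agent.Lib.P126.IsSymBody L),
      Real.log (Vale.Agent.Lib.P126.covNum K L) ≤
      1400000 * Real.log (3 + Real.log (Vale.Agent.Lib.P126.covNum K L)) *
        Real.log (3 + Real.log (3 + Real.log (Vale.Agent.Lib.P126.covNum K L))) *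
      Real.log (Vale.Agent.Lib.P126.covNum (Vale.Agent.Lib.P126.polarSet L)
        ((30000 * Real.log (3 + Real.log (Vale.Agent.Lib.P126.covNum K L)))⁻¹ •
          Vale.Agent.Lib.P126.polarSet K))) ∧
    (∀ {n : ℕ}
    {K L : Set (EuclideanSpace ℝ (Fin n))}
    (hK : Vale.Agent.Lib.P126.IsSymBody K) (hL : Vale.Agent.Lib.P126.IsSymBody L)
    (J J' : ℕ) {B : ℝ} (hB : 1 ≤ B) (hJ' : 1024 * B * ((J : ℝ) + 1) ≤ 2 ^ J'),
      (Real.log (Vale.Agent.Lib.P126.covNum K L) ≤ J' * ((J + 11) *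
        Real.log (Vale.Agent.Lib.P126.covNum (Vale.Agent.Lib.P126.polarSet L)
          ((4096 * B * ((J : ℝ) + 1))⁻¹ • Vale.Agent.Lib.P126.polarSet K)) +
      16384 * ((J : ℝ) + 1) ^ 2 * ((2 * B)⁻¹) ^ J *
        (Real.log (Vale.Agent.Lib.P126.covNum (Vale.Agent.Lib.P126.polarSet L)
          ((4096 * B * ((J : ℝ) + 1))⁻¹ • Vale.Agent.Lib.P126.polarSet K))) ^ 2)) ∧
    (Real.log (Vale.Agent.Lib.P126.covNum (Vale.Agent.Lib.P126.polarSet L)
        ((4096 * B * ((J : ℝ) + 1)) • Vale.Agent.Lib.P126.polarSet K)) ≤ J' * ((J + 11) *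
        Real.log (Vale.Agent.Lib.P126.covNum K L) +
      16384 * ((J : ℝ) + 1) ^ 2 * ((2 * B)⁻¹) ^ J *
        (Real.log (Vale.Agent.Lib.P126.covNum K L)) ^ 2))) :=
  ⟨@Vale.Agent.Results.P126.ADualityNearLinear.result, @Vale.Agent.Results.P126.DualityLogEntropy.result, @Vale.Agent.Results.P126.DualityTwoSided.result⟩

end Vale.Agent.Results.P126.A0Conj
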