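import Vale.Agent.Lib.P126.PowerMain

open scoped Pointwise

/-- Dimension free duality of entropy with absolute scale and loss a small power of the entropy.
For every integer `s ≥ 1`, with `a = 4096 s`, `J = 10 + ⌈log₂ s⌉`, `c = 10 s (1 + log (20 s))` and
`Φ x = J c (512 x)^(1/s) x`, one has `log N(K, L) ≤ Φ (log N(L°, a⁻¹ K°))` and
`log N(L°, a K°) ≤ Φ (log N(K, L))`. -/
theorem Vale.Agent.Results.P126.ADualityNearLinear.result {n : ℕ}
    {K L : Set (EuclideanSpace ℝ (Fin n))}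
    (hK : Vale.Agent.Lib.P126.IsSymBody K) (hL : Vale.Agent.Lib.P126.IsSymBody L)
    {s : ℕ} (hs : 1 ≤ s) :
    (Real.log (Vale.Agent.Lib.P126.covNum K L) ≤ ((10 + Nat.clog 2 s : ℕ) : ℝ) *
      (10 * (s : ℝ) * (1 + Real.log (20 * (s : ℝ))) *
        (512 * Real.log (Vale.Agent.Lib.P126.covNum (Vale.Agent.Lib.P126.polarSet L)
          ((4096 * (s : ℝ))⁻¹ • Vale.Agent.Lib.P126.polarSet K))) ^ ((s : ℝ)⁻¹) *
        Real.log (Vale.Agent.Lib.P126.covNum (Vale.Agent.Lib.P126.polarSet L)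
          ((4096 * (s : ℝ))⁻¹ • Vale.Agent.Lib.P126.polarSet K)))) ∧
    (Real.log (Vale.Agent.Lib.P126.covNum (Vale.Agent.Lib.P126.polarSet L)
        ((4096 * (s : ℝ)) • Vale.Agent.Lib.P126.polarSet K)) ≤ ((10 + Nat.clog 2 s : ℕ) : ℝ) *
      (10 * (s : ℝ) * (1 + Real.log (20 * (s : ℝ))) *
        (512 * Real.log (Vale.Agent.Lib.P126.covNum K L)) ^ ((s : ℝ)⁻¹) *
        Real.log (Vale.Agent.Lib.P126.covNum K L))) := by
  have hJ' : 1024 * (s : ℝ) ≤ 2 ^ (10 + Nat.clog 2 s) := by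
    have h : s ≤ 2 ^ Nat.clog 2 s := Nat.le_pow_clog (by norm_num) s
    have h' : (s : ℝ) ≤ 2 ^ Nat.clog 2 s := by exact_mod_cast h
    rw [pow_add]
    norm_num
    linarith
  exact Vale.Agent.Lib.P126.two_sided_power hK hL hs (10 + Nat.clog 2 s) hJ'
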